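import Vale.Agent.Lib.P062.BookAssembleF

namespace Vale.Agent.Results.P062.MakerWins

open Vale.Agent.Lib.P062

/-- Maker has a winning strategy in the Snaky achievement game on the whole plane (Maker moves
first, no handicap): a strategy that owns an allowed copy of Snaky after at most 20 of its own
moves against every legal Breaker strategy. -/
theorem result : MakerWinsIn 20 (Set.univ : Set (ℤ × ℤ)) {A | IsSnakyCopy A} :=
  makerWinsIn_snaky_bookF

end Vale.Agent.Results.P062.MakerWins
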