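import Vale.Agent.Lib.P062.Assemble

namespace Vale.Agent.Results.P062.MakerWinsUnlessAdjacent

open Vale.Agent.Lib.P062

/-- In the Snaky achievement game on the whole plane (Maker moves first, no handicap), Maker has a
strategy that opens at the cell `(0, 0)` and owns an allowed copy of Snaky after at most 16 of
its own moves, against every legal Breaker strategy whose first reply is not one of the four
cells orthogonally adjacent to the opening. -/
theorem result : MakerWinsAfter 16 (Set.univ : Set (ℤ × ℤ)) {A | IsSnakyCopy A} (0, 0)
    (fun d => d ≠ (1, 0) ∧ d ≠ (-1, 0) ∧ d ≠ (0, 1) ∧ d ≠ (0, -1)) :=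
  makerWinsAfter_unlessAdjacent

end Vale.Agent.Results.P062.MakerWinsUnlessAdjacent
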