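import Vale.Agent.Lib.P062.BookAssemble3

namespace Vale.Agent.Results.P062.MakerWinsUnlessLine3

open Vale.Agent.Lib.P062

/-- Snaky achievement game on the whole plane, Maker first, no handicap: Maker has a strategy that
owns an allowed copy of Snaky after at most 17 of its own moves against every legal Breaker
strategy, except possibly those whose first 3 replies (listed newest first) form one of the
8 listed lines, the images of one line under the symmetries of the grid. -/
theorem result : MakerWinsUnless 17 (Set.univ : Set (ℤ × ℤ)) {A | IsSnakyCopy A} 3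
    {[(-3, 0), (-1, 1), (1, 0)],
      [(3, 0), (1, 1), (-1, 0)],
      [(-3, 0), (-1, -1), (1, 0)],
      [(3, 0), (1, -1), (-1, 0)],
      [(0, -3), (1, -1), (0, 1)],
      [(0, -3), (-1, -1), (0, 1)],
      [(0, 3), (1, 1), (0, -1)],
      [(0, 3), (-1, 1), (0, -1)]} := by
  have h := makerWinsUnless_line3
  have e : {l | l ∈ badList3} = (
      {[(-3, 0), (-1, 1), (1, 0)],
      [(3, 0), (1, 1), (-1, 0)],
      [(-3, 0), (-1, -1), (1, 0)],
      [(3, 0), (1, -1), (-1, 0)],
      [(0, -3), (1, -1), (0, 1)],
      [(0, -3), (-1, -1), (0, 1)],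
      [(0, 3), (1, 1), (0, -1)],
      [(0, 3), (-1, 1), (0, -1)]} : Set (List (ℤ × ℤ))) := by
    ext l
    simp [badList3]
  rw [e] at h
  exact h

end Vale.Agent.Results.P062.MakerWinsUnlessLine3
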