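import Vale.Agent.Lib.P062.Pairing

namespace Vale.Agent.Results.P062.StripFive

open Vale.Agent.Lib.P062

/-- Breaker wins the Snaky achievement game on every board contained in the strip of height five
(for instance the infinite strip itself, or any `n × 5` rectangle). -/
theorem result : ∀ B : Set (ℤ × ℤ), (∀ c ∈ B, 0 ≤ c.2 ∧ c.2 < 5) →
    BreakerWins B {A | IsSnakyCopy A ∧ ∀ c ∈ A, c ∈ B} :=
  breakerWins_strip5

end Vale.Agent.Results.P062.StripFive
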